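import Vale.Agent.P331.H250.ThinL

/-!
# Row CORE: the elements outside the core are irrelevant with high probability
-/

set_option autoImplicit false
set_option linter.unusedSectionVars false
set_option linter.unusedVariables false

namespace Vale.Agent.P331.H250

open Finset Vale.Agent.P331.H489 Vale.Agent.P331.H316
open scoped Classical

/-- the union bound: many small probabilities -/
theorem sum_min_le {ι : Type*} (s : Finset ι) (A J : ι → ℝ) {η C ga B : ℝ} {q : ℕ}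
    (hq : 2 ≤ q) (hη : 0 ≤ η) (hC : 0 ≤ C) (hga : 0 < ga) (hJ : ∀ b ∈ s, 0 ≤ J b)
    (h1 : ∀ b ∈ s, A b ≤ η) (h2 : ∀ b ∈ s, A b ≤ C * J b ^ q)
    (hB : ∑ b ∈ s, J b ^ 2 ≤ B) :
    ∑ b ∈ s, A b ≤ B * (η / ga ^ 2 + C * ga ^ (q - 2)) := by
  have h3 : ∀ b ∈ s, A b ≤ (η / ga ^ 2 + C * ga ^ (q - 2)) * J b ^ 2 := by
    intro b hb
    have hJb := hJ b hb
    rcases le_or_gt ga (J b) with h | h
    · have h4 : 1 ≤ J b ^ 2 / ga ^ 2 := by
        rw [le_div_iff₀ (by positivity), one_mul]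
        exact pow_le_pow_left₀ hga.le h 2
      have h5 : η ≤ η * (J b ^ 2 / ga ^ 2) := le_mul_of_one_le_right hη h4
      have h6 : 0 ≤ C * ga ^ (q - 2) * J b ^ 2 := by positivity
      calc A b ≤ η := h1 b hb
        _ ≤ η * (J b ^ 2 / ga ^ 2) := h5
        _ ≤ η * (J b ^ 2 / ga ^ 2) + C * ga ^ (q - 2) * J b ^ 2 := by linarith
        _ = (η / ga ^ 2 + C * ga ^ (q - 2)) * J b ^ 2 := by ring
    · have h4 : J b ^ q = J b ^ (q - 2) * J b ^ 2 := by
        rw [← pow_add]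
        congr 1
        omega
      have h5 : J b ^ (q - 2) ≤ ga ^ (q - 2) := pow_le_pow_left₀ hJb h.le _
      have h6 : 0 ≤ η / ga ^ 2 * J b ^ 2 := by positivity
      calc A b ≤ C * J b ^ q := h2 b hb
        _ = C * (J b ^ (q - 2) * J b ^ 2) := by rw [h4]
        _ ≤ C * (ga ^ (q - 2) * J b ^ 2) := by
            refine mul_le_mul_of_nonneg_left ?_ hC
            exact mul_le_mul_of_nonneg_right h5 (sq_nonneg _)
        _ ≤ (η / ga ^ 2 + C * ga ^ (q - 2)) * J b ^ 2 := by linarith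
  have h7 : 0 ≤ η / ga ^ 2 + C * ga ^ (q - 2) := by positivity
  calc ∑ b ∈ s, A b ≤ ∑ b ∈ s, (η / ga ^ 2 + C * ga ^ (q - 2)) * J b ^ 2 := sum_le_sum h3
    _ = (η / ga ^ 2 + C * ga ^ (q - 2)) * ∑ b ∈ s, J b ^ 2 := by rw [mul_sum]
    _ ≤ (η / ga ^ 2 + C * ga ^ (q - 2)) * B := mul_le_mul_of_nonneg_left hB h7
    _ = B * (η / ga ^ 2 + C * ga ^ (q - 2)) := by ring

theorem Jn_nonneg {E : Type} [Fintype E] (D : Finset E → Prop) {Θ : ℝ} (h0 : 0 ≤ Θ)
    (h1 : Θ ≤ 1) (b : E) : 0 ≤ Jn D Θ b :=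
  thin_nonneg h0 h1 fun _ _ => hind_nonneg _

/-- the hypercontractive bound for a declared element, any selection of contexts -/
theorem blame_le (hHC : RowHC) {q : ℕ} {p s₁ s₂ th : ℝ} {P : Par} (hq : 1 ≤ q) (hp : 0 ≤ p)
    (hs₁ : 0 ≤ s₁) (hs₂ : 0 ≤ s₂) (hps : p + s₁ + s₂ ≤ 1) (hg0 : 0 ≤ P.g) (hg1 : P.g ≤ 1)
    (hn0 : 0 ≤ P.n) (hn1 : P.n ≤ 1) (ht0 : 0 ≤ P.t) (ht1 : P.t ≤ 1) (hth0 : 0 ≤ th)
    (hth1 : th ≤ 1) (hO : OneC q p (xr s₁ P) s₂ P.t th) {E : Type} [Fintype E]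
    (D : Finset E → Prop) (b : E) (kap : ℕ) {dl : ℝ} (hdl : 0 ≤ dl) :
    (th ^ kap * dl) ^ (2 * q) *
      PR p s₁ s₂ (fun V R I => thin P.g R fun G => thin P.n (R \ G) fun N =>
        H316.ind (∃ U ⊆ V, U.card ≤ kap ∧ dl ≤ ppiv D P.t I b (U ∪ (G ∪ N)))) ≤
      Jn D (Th s₁ s₂ P) b ^ q := by
  have hx0 : 0 ≤ xr s₁ P := by
    unfold xr
    have : 0 ≤ (1 - P.g) * P.n := mul_nonneg (by linarith) hn0
    exact mul_nonneg hs₁ (by linarith)
  have hx1 : xr s₁ P ≤ s₁ := by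
    unfold xr
    have : (1 - P.g) * P.n ≤ (1 - P.g) * 1 := mul_le_mul_of_nonneg_left hn1 (by linarith)
    nlinarith
  have h1 : PR p s₁ s₂ (fun V R I => thin P.g R fun G => thin P.n (R \ G) fun N =>
        H316.ind (∃ U ⊆ V, U.card ≤ kap ∧ dl ≤ ppiv D P.t I b (U ∪ (G ∪ N)))) =
      PR p (xr s₁ P) s₂ (fun V X I => H316.ind (∃ U ⊆ V, U.card ≤ kap ∧
        dl ≤ thin P.t I (fun N => H316.ind (Piv D b (U ∪ X ∪ N))))) := by
    unfold xr
    rw [← PR_thin]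
    unfold PR
    congr 1
    funext κ
    exact thin_union P.g P.n _ rfl (cls κ .s) fun W =>
      H316.ind (∃ U ⊆ cls κ .v, U.card ≤ kap ∧ dl ≤ ppiv D P.t (cls κ .i) b (U ∪ W))
  rw [h1]
  have h2 := hHC q p (xr s₁ P) s₂ P.t th hq hp hx0 hs₂ (by linarith) ht0 ht1 hth0 hth1 hO E
    (fun U => H316.ind (Piv D b U)) (fun _ => hind_nonneg _) kap dl hdl
  refine h2.trans (le_of_eq ?_)
  congr 1
  unfold Jn Th
  congr 1
  funext U
  by_cases h : Piv D b U
  · rw [hind_of h]; norm_num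
  · rw [hind_not h]; norm_num

/-- Row CORE -/
theorem rowCORE (hHC : RowHC) (hB : RowBES) : RowCORE := by
  intro q p s₁ s₂ th P hq hp hs₁ hs₂ hps hg0 hg1 hn0 hn1 ht0 ht1 hth0 hth1 hTh0 hTh1 hO E _ D
    hD j ga hga hdl heta K st hK hst
  set Φ : E → Finset E → Finset E → Finset E → ℝ := fun b V R I =>
    thin P.g R fun G => thin P.n (R \ G) fun N =>
      H316.ind (b ∈ K V R I \ H316.core D P R I j (K V R I) ∧
        rel D P.t (P.dl j) (P.kap j) I (st V R I b) b (G ∪ N)) with hΦ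
  have hle : PR p s₁ s₂ (fun V R I => thin P.g R fun G => thin P.n (R \ G) fun N =>
      H316.ind (∃ b ∈ K V R I \ H316.core D P R I j (K V R I),
        rel D P.t (P.dl j) (P.kap j) I (st V R I b) b (G ∪ N))) ≤
      ∑ b, PR p s₁ s₂ (Φ b) := by
    rw [← PR_sum]
    refine PR_mono hp hs₁ hs₂ hps fun V R I => ?_
    simp only [hΦ]
    rw [← thin_sum]
    refine thin_mono hg0 hg1 fun G _ => ?_
    rw [← thin_sum]
    refine thin_mono hn0 hn1 fun N _ => ?_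
    refine le_trans (hind_mono ?_) (hind_exists_le univ fun b =>
      b ∈ K V R I \ H316.core D P R I j (K V R I) ∧
        rel D P.t (P.dl j) (P.kap j) I (st V R I b) b (G ∪ N))
    rintro ⟨b, hb, hr⟩
    exact ⟨b, mem_univ _, hb, hr⟩
  have hc : 0 < (th ^ P.kap j * P.dl j) ^ (2 * q) := by positivity
  have hA1 : ∀ b ∈ (univ : Finset E), PR p s₁ s₂ (Φ b) ≤ P.eta j := by
    intro b _
    calc PR p s₁ s₂ (Φ b) ≤ PR (E := E) p s₁ s₂ (fun _ _ _ => P.eta j) := by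
          refine PR_mono hp hs₁ hs₂ hps fun V R I => ?_
          by_cases hb : b ∈ K V R I \ H316.core D P R I j (K V R I)
          · have h1 := (hst V R I b hb).2
            have h2 : rho D P.g P.n P.t (P.dl j) (P.kap j) R I (st V R I b) b < P.eta j :=
              not_le.1 h1
            refine le_trans (le_of_eq ?_) h2.le
            refine thin_congr fun G _ => thin_congr fun N _ => ?_
            congr 1
            exact propext ⟨fun h => h.2, fun h => ⟨hb, h⟩⟩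
          · refine le_trans (le_of_eq ?_) heta
            have : ∀ G N : Finset E, H316.ind (b ∈ K V R I \ H316.core D P R I j (K V R I) ∧
                rel D P.t (P.dl j) (P.kap j) I (st V R I b) b (G ∪ N)) = 0 :=
              fun G N => hind_not fun h => hb h.1
            simp only [hΦ, this, thin_const]
      _ = P.eta j := PR_const _ _ _ _
  have hA2 : ∀ b ∈ (univ : Finset E), PR p s₁ s₂ (Φ b) ≤
      1 / (th ^ P.kap j * P.dl j) ^ (2 * q) * Jn D (Th s₁ s₂ P) b ^ q := by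
    intro b _
    have h1 := blame_le hHC (by omega : 1 ≤ q) hp hs₁ hs₂ hps hg0 hg1 hn0 hn1 ht0 ht1 hth0.le
      hth1 hO D b (P.kap j) hdl.le
    have h2 : PR p s₁ s₂ (Φ b) ≤
        PR p s₁ s₂ (fun V R I => thin P.g R fun G => thin P.n (R \ G) fun N =>
        H316.ind (∃ U ⊆ V, U.card ≤ P.kap j ∧ P.dl j ≤ ppiv D P.t I b (U ∪ (G ∪ N)))) := by
      refine PR_mono hp hs₁ hs₂ hps fun V R I => ?_
      refine thin_mono hg0 hg1 fun G _ => thin_mono hn0 hn1 fun N _ => hind_mono ?_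
      rintro ⟨hb, U, hU, hcard, hd⟩
      exact ⟨U, hU.trans ((erase_subset _ _).trans ((hst V R I b hb).1.trans (hK V R I))),
        hcard, hd⟩
    rw [one_div, inv_mul_eq_div, le_div_iff₀ hc, mul_comm]
    exact (mul_le_mul_of_nonneg_left h2 hc.le).trans h1
  have hBes : ∑ b, Jn D (Th s₁ s₂ P) b ^ 2 ≤ 1 / (Th s₁ s₂ P * (1 - Th s₁ s₂ P)) := by
    have h := hB E D hD (Th s₁ s₂ P) hTh0.le hTh1.le
    have hpos : 0 < Th s₁ s₂ P * (1 - Th s₁ s₂ P) := mul_pos hTh0 (by linarith)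
    rw [le_div_iff₀ hpos, mul_comm]
    exact h
  refine hle.trans ?_
  have := sum_min_le univ (fun b => PR p s₁ s₂ (Φ b)) (fun b => Jn D (Th s₁ s₂ P) b) hq heta
    (C := 1 / (th ^ P.kap j * P.dl j) ^ (2 * q)) (by positivity) hga
    (fun b _ => Jn_nonneg D hTh0.le hTh1.le b) hA1 hA2 hBes
  refine this.trans (le_of_eq ?_)
  ring

/-- Row CH -/
theorem rowCH (hHC : RowHC) : RowCH := by
  intro q p s₁ s₂ th P hq hp hs₁ hs₂ hps hg0 hg1 hn0 hn1 ht0 ht1 hth0 hth1 hO E _ D b j hdl heta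
  have h1 := blame_le hHC hq hp hs₁ hs₂ hps hg0 hg1 hn0 hn1 ht0 ht1 hth0 hth1 hO D b (P.kap j)
    hdl
  refine le_trans ?_ h1
  have hc : 0 ≤ (th ^ P.kap j * P.dl j) ^ (2 * q) := by positivity
  have h2 : P.eta j * PR p s₁ s₂ (fun V R I => H316.ind (∃ X ⊆ V, H316.sig D P R I j X b)) ≤
      PR p s₁ s₂ (fun V R I => thin P.g R fun G => thin P.n (R \ G) fun N =>
        H316.ind (∃ U ⊆ V, U.card ≤ P.kap j ∧ P.dl j ≤ ppiv D P.t I b (U ∪ (G ∪ N)))) := by
    unfold PR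
    rw [← EX_mul]
    refine EX_mono (fun _ l => w4_nonneg hp hs₁ hs₂ hps l) fun κ => ?_
    beta_reduce
    by_cases h : ∃ X ⊆ cls κ .v, H316.sig D P (cls κ .s) (cls κ .i) j X b
    · rw [hind_of h, mul_one]
      obtain ⟨X, hX, hs⟩ := h
      refine le_trans hs ?_
      refine thin_mono hg0 hg1 fun G _ => thin_mono hn0 hn1 fun N _ => hind_mono ?_
      rintro ⟨U, hU, hcard, hd⟩
      exact ⟨U, hU.trans ((erase_subset _ _).trans hX), hcard, hd⟩
    · rw [hind_not h, mul_zero]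
      exact thin_nonneg hg0 hg1 fun G _ => thin_nonneg hn0 hn1 fun N _ => hind_nonneg _
  calc P.eta j * (th ^ P.kap j * P.dl j) ^ (2 * q) *
        PR p s₁ s₂ (fun V R I => H316.ind (∃ X ⊆ V, H316.sig D P R I j X b))
      = (th ^ P.kap j * P.dl j) ^ (2 * q) * (P.eta j *
        PR p s₁ s₂ (fun V R I => H316.ind (∃ X ⊆ V, H316.sig D P R I j X b))) := by ring
    _ ≤ _ := mul_le_mul_of_nonneg_left h2 hc

end Vale.Agent.P331.H250
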