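import Vale.Agent.P331.H250.Ker

/-!
# Cores and the core lemma

* `core sig X`: the largest `Q ⊆ X` with `sig Q = Q` for a monotone deflationary `sig`;
* `peel`: the removal of `X \ core X`, one element at a time;
* `psi`, `ppiv`: inner noise; the telescoping inequality.
-/

set_option autoImplicit false
set_option linter.unusedSectionVars false

namespace Vale.Agent.P331.H250

open Finset Vale.Agent.P331.H489

/-! ## Indicators -/

/-- indicator -/
noncomputable def ind (P : Prop) : ℝ := by
  classical exact if P then 1 else 0

theorem ind_of {P : Prop} (h : P) : ind P = 1 := by unfold ind; rw [if_pos h]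

theorem ind_not {P : Prop} (h : ¬ P) : ind P = 0 := by unfold ind; rw [if_neg h]

theorem ind_nonneg (P : Prop) : 0 ≤ ind P := by
  by_cases h : P
  · rw [ind_of h]; exact zero_le_one
  · rw [ind_not h]

theorem ind_le_one (P : Prop) : ind P ≤ 1 := by
  by_cases h : P
  · rw [ind_of h]
  · rw [ind_not h]; exact zero_le_one

theorem ind_mono {P Q : Prop} (h : P → Q) : ind P ≤ ind Q := by
  by_cases hP : P
  · rw [ind_of hP, ind_of (h hP)]
  · rw [ind_not hP]; exact ind_nonneg Q

theorem ind_congr {P Q : Prop} (h : P ↔ Q) : ind P = ind Q :=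
  le_antisymm (ind_mono h.1) (ind_mono h.2)

theorem ind_or_le (P Q : Prop) : ind (P ∨ Q) ≤ ind P + ind Q := by
  by_cases hP : P
  · rw [ind_of (Or.inl hP), ind_of hP]; linarith [ind_nonneg Q]
  · by_cases hQ : Q
    · rw [ind_of (Or.inr hQ), ind_of hQ]; linarith [ind_nonneg P]
    · rw [ind_not (by tauto)]; linarith [ind_nonneg P, ind_nonneg Q]

theorem ind_exists_le {ι : Type*} (s : Finset ι) (P : ι → Prop) :
    ind (∃ i ∈ s, P i) ≤ ∑ i ∈ s, ind (P i) := by
  by_cases h : ∃ i ∈ s, P i
  · obtain ⟨i, hi, hP⟩ := h
    rw [ind_of ⟨i, hi, hP⟩, ← ind_of hP]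
    exact single_le_sum (f := fun i => ind (P i)) (fun _ _ => ind_nonneg _) hi
  · rw [ind_not h]
    exact sum_nonneg fun _ _ => ind_nonneg _

variable {E : Type*} [Fintype E] [DecidableEq E]

/-! ## Cores -/

open Classical in
/-- the largest `Q ⊆ X` with `Q ⊆ sig Q` -/
noncomputable def core (sig : Finset E → Finset E) (X : Finset E) : Finset E :=
  (X.powerset.filter fun Q => Q ⊆ sig Q).sup id

section core

variable {sig : Finset E → Finset E}

theorem core_sub (X : Finset E) : core sig X ⊆ X := by
  unfold core
  refine Finset.sup_le fun Q hQ => ?_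
  exact mem_powerset.1 (mem_filter.1 hQ).1

theorem le_core {X Q : Finset E} (hQX : Q ⊆ X) (hQ : Q ⊆ sig Q) : Q ⊆ core sig X := by
  unfold core
  exact Finset.le_sup (f := id) (mem_filter.2 ⟨mem_powerset.2 hQX, hQ⟩)

theorem core_sub_sig (hm : Monotone sig) (X : Finset E) : core sig X ⊆ sig (core sig X) := by
  intro b hb
  have : b ∈ (X.powerset.filter fun Q => Q ⊆ sig Q).sup id := hb
  rw [Finset.mem_sup] at this
  obtain ⟨Q, hQ, hbQ⟩ := this
  rw [mem_filter, mem_powerset] at hQ
  exact hm (le_core hQ.1 hQ.2) (hQ.2 hbQ)

theorem sig_core (hm : Monotone sig) (hd : ∀ X, sig X ⊆ X) (X : Finset E) :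
    sig (core sig X) = core sig X :=
  Subset.antisymm (hd _) (core_sub_sig hm X)

theorem core_mono (X Y : Finset E) (hm : Monotone sig) (h : X ⊆ Y) :
    core sig X ⊆ core sig Y :=
  le_core ((core_sub X).trans h) (core_sub_sig hm X)

theorem core_idem (hm : Monotone sig) (X : Finset E) :
    core sig (core sig X) = core sig X :=
  Subset.antisymm (core_sub _) (le_core (Subset.refl _) (core_sub_sig hm X))

theorem core_eq_self {X : Finset E} (h : X ⊆ sig X) : core sig X = X :=
  Subset.antisymm (core_sub X) (le_core (Subset.refl _) h)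

theorem core_erase (hm : Monotone sig) {X : Finset E} {b : E} (hb : b ∉ sig X) :
    core sig (X.erase b) = core sig X := by
  have hbc : b ∉ core sig X := fun h => hb (hm (core_sub X) (core_sub_sig hm X h))
  refine Subset.antisymm (core_mono _ _ hm (erase_subset _ _)) ?_
  refine le_core (fun x hx => mem_erase.2 ⟨?_, core_sub X hx⟩) (core_sub_sig hm X)
  rintro rfl
  exact hbc hx

end core

/-! ## The telescoping inequality, abstract form -/

/-- **Peeling.**  `ψ U W` is a function of a context `U` and of a base `W`; removing `b` from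
`insert b U` costs at most `δ` unless `Piv b U W`.  There is one assignment `st` of stage sets
(a function of `X` only) such that every removal of `U' \ core X` is cheap, or for one of the
removed elements `Piv b U W` holds for a context inside its stage set. -/
theorem peel {sig : Finset E → Finset E} (hm : Monotone sig)
    {Ω : Type*} (ψ : Finset E → Ω → ℝ) (Piv : E → Finset E → Ω → Prop) (δ : ℝ) (V : Finset E)
    (good : Ω → Prop)
    (hψ : ∀ b U W, good W → b ∈ V → U ⊆ V → b ∉ U → ¬ Piv b U W →
      ψ U W ≤ ψ (insert b U) W + δ) :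
    ∀ n (X : Finset E), X.card = n → X ⊆ V → ∃ st : E → Finset E,
      (∀ b ∈ X \ core sig X, st b ⊆ X ∧ b ∈ st b ∧ b ∉ sig (st b)) ∧
      ∀ (U : Finset E) (W : Ω), good W → U ⊆ X →
        ψ (U ∩ core sig X) W ≤ ψ U W + (U \ core sig X).card * δ ∨
        ∃ b ∈ X \ core sig X, ∃ U₁ ⊆ (st b).erase b, U₁.card ≤ U.card ∧ Piv b U₁ W := by
  classical
  intro n
  induction n with
  | zero =>
    intro X hX _
    have hX0 : X = ∅ := card_eq_zero.1 hX
    subst hX0
    have hc : core sig (∅ : Finset E) = ∅ := subset_empty.1 (core_sub _)
    refine ⟨fun _ => ∅, by simp, fun U W _ hU => Or.inl ?_⟩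
    have hU0 : U = ∅ := subset_empty.1 hU
    subst hU0
    simp
  | succ n ih =>
    intro X hX hXV
    by_cases hfix : X ⊆ sig X
    · have hc : core sig X = X := core_eq_self hfix
      refine ⟨fun _ => ∅, by rw [hc]; simp, fun U W _ hU => Or.inl ?_⟩
      rw [hc, inter_eq_left.2 hU, sdiff_eq_empty_iff_subset.2 hU]
      simp
    · obtain ⟨b₀, hb₀, hb₀'⟩ := Finset.not_subset.1 hfix
      have hce : core sig (X.erase b₀) = core sig X := core_erase hm hb₀'
      have hb₀c : b₀ ∉ core sig X := by
        rw [← hce]
        intro h
        exact (mem_erase.1 (core_sub _ h)).1 rfl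
      obtain ⟨st, hst, hpeel⟩ := ih (X.erase b₀)
        (by rw [card_erase_of_mem hb₀, hX]; rfl) ((erase_subset _ _).trans hXV)
      rw [hce] at hst hpeel
      refine ⟨Function.update st b₀ X, ?_, ?_⟩
      · intro b hb
        by_cases hbb : b = b₀
        · subst hbb
          rw [Function.update_self]
          exact ⟨Subset.refl _, hb₀, hb₀'⟩
        · rw [Function.update_of_ne hbb]
          rw [mem_sdiff] at hb
          have := hst b (mem_sdiff.2 ⟨mem_erase.2 ⟨hbb, hb.1⟩, hb.2⟩)
          exact ⟨this.1.trans (erase_subset _ _), this.2⟩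
      · intro U W hW hU
        -- lift the right alternative
        have hlift : ∀ U' : Finset E, U'.card ≤ U.card →
            (∃ b ∈ X.erase b₀ \ core sig X, ∃ U₁ ⊆ (st b).erase b, U₁.card ≤ U'.card ∧
              Piv b U₁ W) →
            ∃ b ∈ X \ core sig X, ∃ U₁ ⊆ (Function.update st b₀ X b).erase b,
              U₁.card ≤ U.card ∧ Piv b U₁ W := by
          rintro U' hU' ⟨b, hb, U₁, hU₁, hc₁, hp⟩
          rw [mem_sdiff, mem_erase] at hb
          refine ⟨b, mem_sdiff.2 ⟨hb.1.2, hb.2⟩, U₁, ?_, hc₁.trans hU', hp⟩
          rw [Function.update_of_ne hb.1.1]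
          exact hU₁
        by_cases hbU : b₀ ∈ U
        · set U' := U.erase b₀ with hU'def
          have hU'X : U' ⊆ X.erase b₀ := erase_subset_erase _ hU
          have hins : insert b₀ U' = U := insert_erase hbU
          have hcard : U'.card + 1 = U.card := card_erase_add_one hbU
          by_cases hp : Piv b₀ U' W
          · right
            refine ⟨b₀, mem_sdiff.2 ⟨hb₀, hb₀c⟩, U', ?_, by omega, hp⟩
            rw [Function.update_self]
            exact hU'X
          · have h1 := hψ b₀ U' W hW (hXV hb₀)
              ((hU'X.trans (erase_subset _ _)).trans hXV) (notMem_erase _ _) hp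
            rw [hins] at h1
            rcases hpeel U' W hW hU'X with h2 | h2
            · left
              have e1 : U ∩ core sig X = U' ∩ core sig X := by
                ext x
                simp only [mem_inter, hU'def, mem_erase]
                constructor
                · rintro ⟨h3, h4⟩
                  exact ⟨⟨fun h => hb₀c (h ▸ h4), h3⟩, h4⟩
                · rintro ⟨⟨_, h3⟩, h4⟩
                  exact ⟨h3, h4⟩
              have e2 : (U \ core sig X).card = (U' \ core sig X).card + 1 := by
                have : U \ core sig X = insert b₀ (U' \ core sig X) := by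
                  ext x
                  simp only [mem_sdiff, mem_insert, hU'def, mem_erase]
                  constructor
                  · rintro ⟨h3, h4⟩
                    by_cases hx : x = b₀
                    · exact Or.inl hx
                    · exact Or.inr ⟨⟨hx, h3⟩, h4⟩
                  · rintro (rfl | ⟨⟨_, h3⟩, h4⟩)
                    · exact ⟨hbU, hb₀c⟩
                    · exact ⟨h3, h4⟩
                rw [this, card_insert_of_notMem]
                simp [hU'def]
              rw [e1, e2]
              push_cast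
              linarith
            · right
              exact hlift U' (by omega) h2
        · have hUX : U ⊆ X.erase b₀ := fun x hx =>
            mem_erase.2 ⟨fun h => hbU (h ▸ hx), hU hx⟩
          rcases hpeel U W hW hUX with h2 | h2
          · exact Or.inl h2
          · exact Or.inr (hlift U le_rfl h2)

end Vale.Agent.P331.H250
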