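import Vale.Agent.P331.H316.Rows
import Vale.Agent.P331.H250.CoreL

/-!
# Row DROP: dropping the elements outside the core
-/

set_option autoImplicit false
set_option linter.unusedSectionVars false
set_option linter.unusedVariables false

namespace Vale.Agent.P331.H250

open Finset Vale.Agent.P331.H489 Vale.Agent.P331.H316
open scoped Classical

section

variable {E : Type} [Fintype E]

theorem tw_nonneg {τ : ℝ} (h0 : 0 ≤ τ) (h1 : τ ≤ 1) (b : Bool) : 0 ≤ tw τ b := by
  unfold tw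
  split_ifs <;> linarith

theorem sum_tw (τ : ℝ) : ∑ b, tw τ b = 1 := by
  rw [Fintype.sum_bool]
  simp [tw]

theorem thin_mono {τ : ℝ} (h0 : 0 ≤ τ) (h1 : τ ≤ 1) {S : Finset E} {F G : Finset E → ℝ}
    (h : ∀ N, N ⊆ S → F N ≤ G N) : thin τ S F ≤ thin τ S G :=
  EX_mono (fun _ b => tw_nonneg h0 h1 b) fun _ => h _ (filter_subset _ _)

theorem thin_nonneg {τ : ℝ} (h0 : 0 ≤ τ) (h1 : τ ≤ 1) {S : Finset E} {F : Finset E → ℝ}
    (h : ∀ N, N ⊆ S → 0 ≤ F N) : 0 ≤ thin τ S F :=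
  EX_nonneg (fun _ b => tw_nonneg h0 h1 b) fun _ => h _ (filter_subset _ _)

theorem thin_congr {τ : ℝ} {S : Finset E} {F G : Finset E → ℝ}
    (h : ∀ N, N ⊆ S → F N = G N) : thin τ S F = thin τ S G := by
  unfold thin
  congr 1
  funext c
  exact h _ (filter_subset _ _)

theorem thin_add (τ : ℝ) (S : Finset E) (F G : Finset E → ℝ) :
    thin τ S (fun N => F N + G N) = thin τ S F + thin τ S G := EX_add _ _ _

theorem thin_mul (τ : ℝ) (S : Finset E) (c : ℝ) (F : Finset E → ℝ) :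
    thin τ S (fun N => c * F N) = c * thin τ S F := EX_mul _ _ _

theorem thin_sum {ι : Type*} (s : Finset ι) (τ : ℝ) (S : Finset E) (F : ι → Finset E → ℝ) :
    thin τ S (fun N => ∑ i ∈ s, F i N) = ∑ i ∈ s, thin τ S (F i) := EX_sum _ _ _

theorem thin_const (τ : ℝ) (S : Finset E) (c : ℝ) : thin τ S (fun _ => c) = c :=
  EX_one _ (fun _ => sum_tw τ) c

theorem hind_of {P : Prop} (h : P) : H316.ind P = 1 := by unfold H316.ind; rw [if_pos h]

theorem hind_not {P : Prop} (h : ¬ P) : H316.ind P = 0 := by unfold H316.ind; rw [if_neg h]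

theorem hind_nonneg (P : Prop) : 0 ≤ H316.ind P := by
  by_cases h : P
  · rw [hind_of h]; exact zero_le_one
  · rw [hind_not h]

theorem hind_le_one (P : Prop) : H316.ind P ≤ 1 := by
  by_cases h : P
  · rw [hind_of h]
  · rw [hind_not h]; exact zero_le_one

theorem hind_mono {P Q : Prop} (h : P → Q) : H316.ind P ≤ H316.ind Q := by
  by_cases hP : P
  · rw [hind_of hP, hind_of (h hP)]
  · rw [hind_not hP]; exact hind_nonneg Q

theorem hind_exists_le {ι : Type*} (s : Finset ι) (P : ι → Prop) :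
    H316.ind (∃ i ∈ s, P i) ≤ ∑ i ∈ s, H316.ind (P i) := by
  by_cases h : ∃ i ∈ s, P i
  · obtain ⟨i, hi, hP⟩ := h
    rw [hind_of ⟨i, hi, hP⟩, ← hind_of hP]
    exact single_le_sum (f := fun i => H316.ind (P i)) (fun _ _ => hind_nonneg _) hi
  · rw [hind_not h]
    exact sum_nonneg fun _ _ => hind_nonneg _

variable (D : Finset E → Prop)

theorem rho_mono {g n t dl : ℝ} (hg0 : 0 ≤ g) (hg1 : g ≤ 1) (hn0 : 0 ≤ n) (hn1 : n ≤ 1)
    (kap : ℕ) (R I : Finset E) {X Y : Finset E} (h : X ⊆ Y) (b : E) :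
    rho D g n t dl kap R I X b ≤ rho D g n t dl kap R I Y b := by
  refine thin_mono hg0 hg1 fun G _ => thin_mono hn0 hn1 fun N _ => hind_mono ?_
  rintro ⟨U, hU, hc, hd⟩
  exact ⟨U, hU.trans (erase_subset_erase _ h), hc, hd⟩

/-- the declared elements of `X` -/
noncomputable def sg (P : Par) (R I : Finset E) (j : ℕ) (X : Finset E) : Finset E :=
  X.filter fun b => H316.sig D P R I j X b

theorem sg_mono (P : Par) (hg0 : 0 ≤ P.g) (hg1 : P.g ≤ 1) (hn0 : 0 ≤ P.n) (hn1 : P.n ≤ 1)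
    (R I : Finset E) (j : ℕ) : Monotone (sg D P R I j) := by
  intro X Y h b hb
  rw [sg, mem_filter] at hb ⊢
  exact ⟨h hb.1, le_trans hb.2 (rho_mono D hg0 hg1 hn0 hn1 _ R I h b)⟩

theorem sg_sub (P : Par) (R I : Finset E) (j : ℕ) (X : Finset E) : sg D P R I j X ⊆ X :=
  filter_subset _ _

theorem core_eq (P : Par) (R I : Finset E) (j : ℕ) (X : Finset E) :
    H316.core D P R I j X = H250.core (sg D P R I j) X := by
  unfold H316.core H250.core
  congr 1
  refine filter_congr fun Q _ => ?_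
  constructor
  · intro h b hb
    rw [sg, mem_filter]
    exact ⟨hb, h b hb⟩
  · intro h b hb
    have := h hb
    rw [sg, mem_filter] at this
    exact this.2

theorem psi_step (hD : Up D) {t : ℝ} (ht0 : 0 ≤ t) (ht1 : t ≤ 1) (I : Finset E) (b : E)
    (U W : Finset E) :
    psi D t I (U ∪ W) ≤ psi D t I (insert b U ∪ W) + ppiv D t I b (U ∪ W) := by
  unfold psi ppiv
  rw [← thin_add]
  refine thin_mono ht0 ht1 fun N _ => ?_
  by_cases h1 : D (U ∪ W ∪ N)
  · rw [hind_not (not_not.2 h1)]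
    exact add_nonneg (hind_nonneg _) (hind_nonneg _)
  · by_cases h2 : D (insert b U ∪ W ∪ N)
    · have h3 : Piv D b (U ∪ W ∪ N) := by
        refine ⟨?_, fun h => h1 (hD _ _ (erase_subset _ _) h)⟩
        have e1 : insert b (U ∪ W ∪ N) = insert b U ∪ W ∪ N := by
          rw [insert_union, insert_union]
        rw [e1]
        exact h2
      rw [hind_of h3]
      linarith [hind_le_one (¬ D (U ∪ W ∪ N)), hind_nonneg (¬ D (insert b U ∪ W ∪ N))]
    · rw [hind_of h1, hind_of h2]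
      linarith [hind_nonneg (Piv D b (U ∪ W ∪ N))]

/-- Row DROP, with the natural ranges of the parameters -/
theorem drop (hD : Up D) (P : Par) (R I : Finset E) (j : ℕ) (K : Finset E)
    (ht0 : 0 ≤ P.t) (ht1 : P.t ≤ 1) (hg0 : 0 ≤ P.g) (hg1 : P.g ≤ 1) (hn0 : 0 ≤ P.n)
    (hn1 : P.n ≤ 1) (hdl : 0 ≤ P.dl j) :
    ∃ st : E → Finset E, (∀ b ∈ K \ H316.core D P R I j K, b ∈ st b ∧ st b ⊆ K ∧
      ¬ H316.sig D P R I j (st b) b) ∧
    ∀ U ⊆ K, ∀ W : Finset E, U.card ≤ P.kap j →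
      (∀ b ∈ K \ H316.core D P R I j K, ¬ rel D P.t (P.dl j) (P.kap j) I (st b) b W) →
      psi D P.t I ((U ∩ H316.core D P R I j K) ∪ W) ≤
        psi D P.t I (U ∪ W) + P.kap j * P.dl j := by
  obtain ⟨st, hst, hpeel⟩ := peel (sg_mono D P hg0 hg1 hn0 hn1 R I j)
    (fun U W => psi D P.t I (U ∪ W)) (fun b U W => P.dl j ≤ ppiv D P.t I b (U ∪ W)) (P.dl j) K
    (fun _ => True) (fun b U W _ _ _ _ h => by
      have := psi_step D hD ht0 ht1 I b U W
      push Not at h
      linarith) K.card K rfl (Subset.refl _)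
  rw [← core_eq] at hst hpeel
  refine ⟨st, fun b hb => ?_, fun U hU W hc hrel => ?_⟩
  · obtain ⟨h1, h2, h3⟩ := hst b hb
    refine ⟨h2, h1, fun h => h3 ?_⟩
    rw [sg, mem_filter]
    exact ⟨h2, h⟩
  · rcases hpeel U W trivial hU with h | ⟨b, hb, U₁, hU₁, hc₁, hp⟩
    · refine h.trans ?_
      have h1 : ((U \ H316.core D P R I j K).card : ℝ) ≤ P.kap j := by
        exact_mod_cast (card_le_card sdiff_subset).trans hc
      have := mul_le_mul_of_nonneg_right h1 hdl
      linarith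
    · exact absurd ⟨U₁, hU₁, hc₁.trans hc, hp⟩ (hrel b hb)

end

end Vale.Agent.P331.H250
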