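import Vale.Agent.P331.H250.ThinL

/-!
# Rows MK and SPLIT
-/

set_option autoImplicit false
set_option linter.unusedSectionVars false
set_option linter.unusedVariables false

namespace Vale.Agent.P331.H250

open Finset Vale.Agent.P331.H489 Vale.Agent.P331.H316
open scoped Classical

theorem fl_nonneg {E : Type} [Fintype E] (D : Finset E → Prop) {n : ℝ} (hn0 : 0 ≤ n)
    (hn1 : n ≤ 1) (t e : ℝ) (R I U : Finset E) : 0 ≤ fl D n t e R I U :=
  thin_nonneg hn0 hn1 fun _ _ => hind_nonneg _

/-- Row MK -/
theorem rowMK : RowMK := by
  intro E _ D g n t e lam zet lam' zet' kap hg0 hg1 hn0 hn1 ht0 ht1 hlam hzet hlam' hzet' R I A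
    hBB
  have hg2 : 0 < 1 - g := by linarith
  have hg3 : 0 < 1 - 2 * g := by linarith
  set g' := g / (1 - g) with hg'
  set n' := n * (1 - g) / (1 - 2 * g) with hn'
  have hg'0 : 0 ≤ g' := div_nonneg hg0 hg2.le
  have hg'1 : g' ≤ 1 := by rw [hg', div_le_one hg2]; linarith
  have hn'0 : 0 ≤ n' := div_nonneg (mul_nonneg hn0 hg2.le) hg3.le
  have hn'1 : n' ≤ 1 := by rw [hn', div_le_one hg3]; exact hn1
  have hgg : (1 - g) * g' = g := by rw [hg']; field_simp
  have hnn : (1 - g') * n' = n := by
    have e1 : 1 - g' = (1 - 2 * g) / (1 - g) := by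
      rw [hg', eq_div_iff hg2.ne', sub_mul, div_mul_cancel₀ _ hg2.ne']
      ring
    rw [e1, hn', div_mul_div_comm, mul_comm (1 - g) (1 - 2 * g), mul_comm n (1 - g),
      ← mul_assoc, mul_div_assoc, mul_comm]
    exact div_mul_cancel₀ _ (mul_ne_zero hg3.ne' hg2.ne')
  have hg1' : g ≤ 1 := by linarith
  set nb : Finset E → Finset E → Prop := fun H G =>
    ¬ bb D n' t e lam' kap (R \ H) I A G with hnb
  -- Markov over the second pool
  have h1 : ∀ H : Finset E, H316.ind (¬ BB D g' n' t e lam' zet' kap (R \ H) I A) * zet' ≤
      thin g' (R \ H) (fun G => H316.ind (nb H G)) := by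
    intro H
    have hsum : thin g' (R \ H) (fun G => H316.ind (bb D n' t e lam' kap (R \ H) I A G)) +
        thin g' (R \ H) (fun G => H316.ind (nb H G)) = 1 := by
      rw [← thin_add, ← thin_const g' (R \ H) 1]
      refine thin_congr fun G _ => ?_
      by_cases h : bb D n' t e lam' kap (R \ H) I A G
      · rw [hind_of h, hind_not (not_not.2 h), add_zero]
      · rw [hind_not h, hind_of h, zero_add]
    by_cases h : BB D g' n' t e lam' zet' kap (R \ H) I A
    · rw [hind_not (not_not.2 h), zero_mul]
      exact thin_nonneg hg'0 hg'1 fun _ _ => hind_nonneg _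
    · rw [hind_of h, one_mul]
      have h2 : thin g' (R \ H) (fun G => H316.ind (bb D n' t e lam' kap (R \ H) I A G)) <
          1 - zet' := not_le.1 h
      linarith
  have h2 : thin g R (fun H => H316.ind (¬ BB D g' n' t e lam' zet' kap (R \ H) I A)) * zet' ≤
      thin g R (fun H => thin g' (R \ H) (fun G => H316.ind (nb H G))) := by
    rw [mul_comm, ← thin_mul]
    refine thin_mono hg0 hg1' fun H _ => ?_
    rw [mul_comm]
    exact h1 H
  have h3 : thin g R (fun H => thin g' (R \ H) (fun G => H316.ind (nb H G))) =
      thin g R (fun G => thin g' (R \ G) (fun H => H316.ind (nb H G))) :=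
    thin_swap g g' g g' hgg hgg R (fun H G => H316.ind (nb H G))
  -- for a fixed first pool
  have h4 : ∀ G : Finset E, G ⊆ R → thin g' (R \ G) (fun H => H316.ind (nb H G)) ≤
      H316.ind (¬ bb D n t e lam kap R I A G) + lam / lam' := by
    intro G _
    by_cases h : bb D n t e lam kap R I A G
    · rw [hind_not (not_not.2 h), zero_add]
      obtain ⟨Y, hYA, hYc, hY⟩ := h
      rw [le_div_iff₀ hlam', mul_comm, ← thin_mul]
      calc thin g' (R \ G) (fun H => lam' * H316.ind (nb H G))
          ≤ thin g' (R \ G) (fun H => thin n' ((R \ G) \ H)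
              (fun N => H316.ind (e < psi D t I (Y ∪ G ∪ N)))) := by
            refine thin_mono hg'0 hg'1 fun H _ => ?_
            have hset : (R \ H) \ G = (R \ G) \ H := by
              ext x
              simp only [mem_sdiff]
              tauto
            by_cases hb : nb H G
            · rw [hind_of hb, mul_one]
              by_contra hcon
              push Not at hcon
              apply hb
              refine ⟨Y, hYA, hYc, ?_⟩
              unfold fl
              rw [hset]
              exact hcon.le
            · rw [hind_not hb, mul_zero]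
              exact thin_nonneg hn'0 hn'1 fun _ _ => hind_nonneg _
        _ = thin n (R \ G) (fun N => H316.ind (e < psi D t I (Y ∪ G ∪ N))) :=
            thin_snd g' n' n hnn (R \ G) _
        _ ≤ lam := hY
    · have h5 : thin g' (R \ G) (fun H => H316.ind (nb H G)) ≤ 1 := by
        rw [← thin_const g' (R \ G) 1]
        exact thin_mono hg'0 hg'1 fun _ _ => hind_le_one _
      rw [hind_of h]
      have : 0 ≤ lam / lam' := div_nonneg hlam hlam'.le
      linarith
  have h5 : thin g R (fun G => H316.ind (¬ bb D n t e lam kap R I A G)) ≤ zet := by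
    have hsum : thin g R (fun G => H316.ind (bb D n t e lam kap R I A G)) +
        thin g R (fun G => H316.ind (¬ bb D n t e lam kap R I A G)) = 1 := by
      rw [← thin_add, ← thin_const g R 1]
      refine thin_congr fun G _ => ?_
      by_cases h : bb D n t e lam kap R I A G
      · rw [hind_of h, hind_not (not_not.2 h), add_zero]
      · rw [hind_not h, hind_of h, zero_add]
    have : 1 - zet ≤ thin g R (fun G => H316.ind (bb D n t e lam kap R I A G)) := hBB
    linarith
  rw [le_div_iff₀ hzet']
  calc thin g R (fun H => H316.ind (¬ BB D g' n' t e lam' zet' kap (R \ H) I A)) * zet'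
      ≤ thin g R (fun G => thin g' (R \ G) (fun H => H316.ind (nb H G))) := h2.trans (le_of_eq h3)
    _ ≤ thin g R (fun G => H316.ind (¬ bb D n t e lam kap R I A G) + lam / lam') :=
        thin_mono hg0 hg1' h4
    _ = thin g R (fun G => H316.ind (¬ bb D n t e lam kap R I A G)) + lam / lam' := by
        rw [thin_add, thin_const]
    _ ≤ zet + lam / lam' := by linarith

theorem sum_L5 (f : L5 → ℝ) : ∑ l, f l = f .v + f .h + f .r + f .i + f .o := by
  have h : (univ : Finset L5) = {.v, .h, .r, .i, .o} := rfl
  rw [h, sum_insert (by decide), sum_insert (by decide), sum_insert (by decide),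
    sum_insert (by decide), sum_singleton]
  ring

/-- Row SPLIT -/
theorem rowSPLIT : RowSPLIT := by
  intro E _ p s₁ s₂ γ F
  let g : L4 × Bool → L5 := fun y =>
    match y with
    | (.v, _) => .v
    | (.s, true) => .h
    | (.s, false) => .r
    | (.i, _) => .i
    | (.o, _) => .o
  have h1 : PR p s₁ s₂ (fun V R I => thin γ R fun H => F V H (R \ H) I) =
      EX (fun _ : E => w4 p s₁ s₂) (fun κ => EX (fun _ : E => tw γ) (fun c =>
        F (cls (fun e => g (κ e, c e)) .v) (cls (fun e => g (κ e, c e)) .h)
          (cls (fun e => g (κ e, c e)) .r) (cls (fun e => g (κ e, c e)) .i))) := by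
    unfold PR thin
    refine EX_congr (fun _ _ => rfl) fun κ => EX_congr (fun _ _ => rfl) fun c => ?_
    have e1 : cls κ .v = cls (fun e => g (κ e, c e)) .v := by
      ext e
      simp only [cls, mem_filter, mem_univ, true_and, g]
      cases κ e <;> cases c e <;> simp
    have e2 : (cls κ .s).filter (fun e => c e = true) = cls (fun e => g (κ e, c e)) .h := by
      ext e
      simp only [cls, mem_filter, mem_univ, true_and, g]
      cases κ e <;> cases c e <;> simp
    have e4 : cls κ .s \ (cls κ .s).filter (fun e => c e = true) =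
        cls (fun e => g (κ e, c e)) .r := by
      ext e
      simp only [cls, mem_sdiff, mem_filter, mem_univ, true_and, g]
      cases κ e <;> cases c e <;> simp
    have e3 : cls κ .i = cls (fun e => g (κ e, c e)) .i := by
      ext e
      simp only [cls, mem_filter, mem_univ, true_and, g]
      cases κ e <;> cases c e <;> simp
    beta_reduce
    rw [e4, e2, ← e1, ← e3]
  rw [h1]
  have h2 := EX_bind_map (E := E) (fun _ : E => w4 p s₁ s₂) (fun _ _ => tw γ) g
    (fun κ => F (cls κ .v) (cls κ .h) (cls κ .r) (cls κ .i))
  refine Eq.trans h2 ?_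
  unfold PR5
  refine EX_congr (fun e c => ?_) fun _ => rfl
  rw [sum_filter, Fintype.sum_prod_type, sum_L4]
  simp only [Fintype.sum_bool]
  cases c <;> simp [g, w4, tw, w5'] <;> ring

end Vale.Agent.P331.H250
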