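import Vale.Agent.P331.H489.Ex

/-!
# Kernels on product spaces of labels, thinnings

* `EX_bind`: hierarchical sampling is a product law on pairs of labels;
* `KR`, `KR_KR`, `EX_KR`: product stochastic matrices and their composition;
* `TH r S f`: expectation of `f` over the thinning of the finite set `S` with rates `r`;
  `TH_eq_sum` its Finset form;
* composition identities of thinnings.
-/

set_option autoImplicit false
set_option linter.unusedSectionVars false

namespace Vale.Agent.P331.H250

open Finset Vale.Agent.P331.H489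

variable {E L L' L'' C : Type*} [Fintype E] [DecidableEq E] [Fintype L] [DecidableEq L]
  [Fintype L'] [DecidableEq L'] [Fintype L''] [DecidableEq L''] [Fintype C] [DecidableEq C]

/-! ## Hierarchical sampling -/

/-- sampling the second label from a kernel which depends on the first label -/
theorem EX_bind (w : E → L → ℝ) (k : E → L → L' → ℝ) (F : (E → L) → (E → L') → ℝ) :
    EX w (fun ω => EX (fun e => k e (ω e)) (F ω)) =
      EX (fun e (x : L × L') => w e x.1 * k e x.1 x.2)
        (fun τ => F (fun e => (τ e).1) (fun e => (τ e).2)) := by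
  unfold EX
  simp only [mul_sum]
  rw [← sum_product']
  symm
  refine Fintype.sum_equiv (Equiv.arrowProdEquivProdArrow E (fun _ => L) (fun _ => L')) _ _
    fun τ => ?_
  rw [prod_mul_distrib]
  simp only [Equiv.arrowProdEquivProdArrow]
  simp [mul_assoc]

/-- hierarchical sampling followed by a map of the pair of labels -/
theorem EX_bind_map (w : E → L → ℝ) (k : E → L → L' → ℝ) (g : L × L' → C)
    (F : (E → C) → ℝ) :
    EX w (fun ω => EX (fun e => k e (ω e)) (fun ω' => F (fun e => g (ω e, ω' e)))) =
      EX (fun e c => ∑ x : L × L' with g x = c, w e x.1 * k e x.1 x.2) F := by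
  rw [EX_bind w k (fun ω ω' => F (fun e => g (ω e, ω' e)))]
  exact EX_push g (fun e (x : L × L') => w e x.1 * k e x.1 x.2) F

/-- the expectation depends only on the weights -/
theorem EX_congr {w w' : E → L → ℝ} (h : ∀ e l, w e l = w' e l) {F G : (E → L) → ℝ}
    (hF : ∀ ω, F ω = G ω) : EX w F = EX w' G := by
  have h1 : w = w' := by funext e l; exact h e l
  have h2 : F = G := funext hF
  rw [h1, h2]

/-- functions that agree wherever the weight does not vanish -/
theorem EX_congr_supp {w : E → L → ℝ} {F G : (E → L) → ℝ}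
    (hF : ∀ ω, (∀ e, w e (ω e) ≠ 0) → F ω = G ω) : EX w F = EX w G := by
  unfold EX
  refine sum_congr rfl fun ω _ => ?_
  by_cases h : ∀ e, w e (ω e) ≠ 0
  · rw [hF ω h]
  · push Not at h
    obtain ⟨e, he⟩ := h
    rw [prod_eq_zero (mem_univ e) he, zero_mul, zero_mul]

/-- inequality only where the weight does not vanish -/
theorem EX_mono_supp {w : E → L → ℝ} (hw : ∀ e l, 0 ≤ w e l) {F G : (E → L) → ℝ}
    (hF : ∀ ω, (∀ e, w e (ω e) ≠ 0) → F ω ≤ G ω) : EX w F ≤ EX w G := by
  unfold EX
  refine sum_le_sum fun ω _ => ?_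
  by_cases h : ∀ e, w e (ω e) ≠ 0
  · exact mul_le_mul_of_nonneg_left (hF ω h) (prod_nonneg fun e _ => hw e _)
  · push Not at h
    obtain ⟨e, he⟩ := h
    rw [prod_eq_zero (mem_univ e) he, zero_mul, zero_mul]

/-! ## Product kernels -/

/-- product stochastic matrix acting on functions of labelings -/
def KR (k : E → L → L' → ℝ) (F : (E → L') → ℝ) (ω : E → L) : ℝ := EX (fun e => k e (ω e)) F

theorem EX_KR (w : E → L → ℝ) (k : E → L → L' → ℝ) (F : (E → L') → ℝ) :
    EX w (KR k F) = EX (fun e c => ∑ b, w e b * k e b c) F := by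
  unfold KR
  rw [EX_bind_map w k (fun x => x.2) F]
  refine EX_congr (fun e c => ?_) fun _ => rfl
  rw [sum_filter, Fintype.sum_prod_type]
  refine sum_congr rfl fun b _ => ?_
  simp

theorem KR_KR (k₁ : E → L → L' → ℝ) (k₂ : E → L' → L'' → ℝ) (F : (E → L'') → ℝ)
    (ω : E → L) :
    KR k₁ (KR k₂ F) ω = KR (fun e a c => ∑ b, k₁ e a b * k₂ e b c) F ω :=
  EX_KR (fun e => k₁ e (ω e)) k₂ F

/-! ## Thinnings of finite sets -/

/-- Bernoulli weights on `S`, nothing outside -/
def bw (r : E → ℝ) (S : Finset E) (e : E) (b : Bool) : ℝ :=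
  if e ∈ S then (if b then r e else 1 - r e) else (if b then 0 else 1)

theorem bw_nonneg {r : E → ℝ} (h0 : ∀ e, 0 ≤ r e) (h1 : ∀ e, r e ≤ 1) (S : Finset E) (e : E)
    (b : Bool) : 0 ≤ bw r S e b := by
  unfold bw
  have := h0 e
  have := h1 e
  split_ifs <;> linarith

theorem bw_sum (r : E → ℝ) (S : Finset E) (e : E) : ∑ b, bw r S e b = 1 := by
  rw [Fintype.sum_bool]
  by_cases h : e ∈ S <;> simp [bw, h]

/-- the set of a labelling -/
def tset (b : E → Bool) : Finset E := univ.filter fun e => b e = true

theorem mem_tset {b : E → Bool} {e : E} : e ∈ tset b ↔ b e = true := by simp [tset]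

/-- expectation over the thinning of `S` with rates `r` -/
def TH (r : E → ℝ) (S : Finset E) (f : Finset E → ℝ) : ℝ :=
  EX (bw r S) fun b => f (tset b)

/-- the Finset form -/
theorem TH_eq_sum (r : E → ℝ) (S : Finset E) (f : Finset E → ℝ) :
    TH r S f = ∑ G ∈ S.powerset, (∏ e ∈ G, r e) * (∏ e ∈ S \ G, (1 - r e)) * f G := by
  unfold TH EX
  have h1 : ∑ b : E → Bool, (∏ e, bw r S e (b e)) * f (tset b) =
      ∑ G : Finset E, (∏ e, bw r S e (decide (e ∈ G))) * f G := by
    refine Fintype.sum_equiv
      { toFun := fun b => tset b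
        invFun := fun G e => decide (e ∈ G)
        left_inv := fun b => by funext e; simp [tset]
        right_inv := fun G => by ext e; simp [tset] } _ _ fun b => ?_
    simp only [Equiv.coe_fn_mk]
    congr 1
    refine prod_congr rfl fun e _ => ?_
    congr 1
    simp [tset]
  rw [h1]
  have h2 : ∑ G : Finset E, (∏ e, bw r S e (decide (e ∈ G))) * f G =
      ∑ G ∈ S.powerset, (∏ e, bw r S e (decide (e ∈ G))) * f G := by
    symm
    refine sum_subset (subset_univ _) fun G _ hG => ?_
    rw [mem_powerset, Finset.not_subset] at hG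
    obtain ⟨e, heG, heS⟩ := hG
    rw [prod_eq_zero (mem_univ e), zero_mul]
    simp [bw, heG, heS]
  rw [h2]
  refine sum_congr rfl fun G hG => ?_
  rw [mem_powerset] at hG
  congr 1
  have h3 : ∏ e, bw r S e (decide (e ∈ G)) = ∏ e ∈ S, bw r S e (decide (e ∈ G)) := by
    symm
    refine prod_subset (subset_univ _) fun e _ he => ?_
    have : e ∉ G := fun h => he (hG h)
    simp [bw, he, this]
  rw [h3, ← prod_sdiff hG, mul_comm]
  congr 1
  · refine prod_congr rfl fun e he => ?_
    simp [bw, hG he, he]
  · refine prod_congr rfl fun e he => ?_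
    rw [mem_sdiff] at he
    simp [bw, he.1, he.2]

theorem TH_nonneg {r : E → ℝ} (h0 : ∀ e, 0 ≤ r e) (h1 : ∀ e, r e ≤ 1) (S : Finset E)
    {f : Finset E → ℝ} (hf : ∀ G, G ⊆ S → 0 ≤ f G) : 0 ≤ TH r S f := by
  rw [TH_eq_sum]
  refine sum_nonneg fun G hG => mul_nonneg (mul_nonneg (prod_nonneg fun e _ => h0 e)
    (prod_nonneg fun e _ => by linarith [h1 e])) (hf G (mem_powerset.1 hG))

theorem TH_mono {r : E → ℝ} (h0 : ∀ e, 0 ≤ r e) (h1 : ∀ e, r e ≤ 1) (S : Finset E)
    {f g : Finset E → ℝ} (hf : ∀ G, G ⊆ S → f G ≤ g G) : TH r S f ≤ TH r S g := by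
  rw [TH_eq_sum, TH_eq_sum]
  exact sum_le_sum fun G hG => mul_le_mul_of_nonneg_left (hf G (mem_powerset.1 hG))
    (mul_nonneg (prod_nonneg fun e _ => h0 e) (prod_nonneg fun e _ => by linarith [h1 e]))

theorem TH_congr {r q : E → ℝ} {S : Finset E} (hr : ∀ e ∈ S, r e = q e)
    {f g : Finset E → ℝ} (hf : ∀ G, G ⊆ S → f G = g G) : TH r S f = TH q S g := by
  rw [TH_eq_sum, TH_eq_sum]
  refine sum_congr rfl fun G hG => ?_
  have hG' := mem_powerset.1 hG
  have h1 : ∏ e ∈ G, r e = ∏ e ∈ G, q e := prod_congr rfl fun e he => hr e (hG' he)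
  have h2 : ∏ e ∈ S \ G, (1 - r e) = ∏ e ∈ S \ G, (1 - q e) :=
    prod_congr rfl fun e he => by rw [hr e (mem_sdiff.1 he).1]
  rw [hf G hG', h1, h2]

theorem TH_const (r : E → ℝ) (S : Finset E) (c : ℝ) : TH r S (fun _ => c) = c :=
  EX_one _ (bw_sum r S) c

theorem TH_add (r : E → ℝ) (S : Finset E) (f g : Finset E → ℝ) :
    TH r S (fun G => f G + g G) = TH r S f + TH r S g := EX_add _ _ _

theorem TH_sub (r : E → ℝ) (S : Finset E) (f g : Finset E → ℝ) :
    TH r S (fun G => f G - g G) = TH r S f - TH r S g := EX_sub _ _ _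

theorem TH_mul (r : E → ℝ) (S : Finset E) (c : ℝ) (f : Finset E → ℝ) :
    TH r S (fun G => c * f G) = c * TH r S f := EX_mul _ _ _

theorem TH_sum {ι : Type*} (s : Finset ι) (r : E → ℝ) (S : Finset E)
    (f : ι → Finset E → ℝ) :
    TH r S (fun G => ∑ i ∈ s, f i G) = ∑ i ∈ s, TH r S (f i) := EX_sum _ _ _

/-- Markov's inequality -/
theorem TH_markov {r : E → ℝ} (h0 : ∀ e, 0 ≤ r e) (h1 : ∀ e, r e ≤ 1) (S : Finset E)
    {f : Finset E → ℝ} (hf : ∀ G, G ⊆ S → 0 ≤ f G) {t : ℝ} (P : Finset E → Prop)
    [DecidablePred P] (hP : ∀ G, G ⊆ S → P G → t ≤ f G) :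
    t * TH r S (fun G => if P G then 1 else 0) ≤ TH r S f := by
  rw [← TH_mul]
  refine TH_mono h0 h1 S fun G hG => ?_
  split_ifs with h
  · rw [mul_one]; exact hP G hG h
  · rw [mul_zero]; exact hf G hG

/-! ## Two exclusive thinnings -/

/-- weights of two exclusive thinnings of `S` with absolute rates `a`, `b`
(labels: `some true`, `some false`, `none`) -/
def bw2 (a b : E → ℝ) (S : Finset E) (e : E) (l : Option Bool) : ℝ :=
  if e ∈ S then (if l = some true then a e else if l = some false then b e
    else 1 - a e - b e)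
  else (if l = none then 1 else 0)

/-- the set of a label -/
def lset (l : L) (ω : E → L) : Finset E := univ.filter fun e => ω e = l

theorem mem_lset {l : L} {ω : E → L} {e : E} : e ∈ lset l ω ↔ ω e = l := by simp [lset]

/-- expectation over a pair of exclusive thinnings of `S`, absolute rates `a`, `b` -/
def T2 (a b : E → ℝ) (S : Finset E) (F : Finset E → Finset E → ℝ) : ℝ :=
  EX (bw2 a b S) fun ω => F (lset (some true) ω) (lset (some false) ω)

private theorem sum_ob (f : Option Bool → ℝ) :
    ∑ l, f l = f none + f (some true) + f (some false) := by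
  rw [Fintype.sum_option, Fintype.sum_bool]; ring

/-- a nested thinning -/
theorem TH_TH (r q : E → ℝ) (S : Finset E) (F : Finset E → Finset E → ℝ) :
    TH r S (fun G => TH q (S \ G) (fun N => F G N)) =
      T2 r (fun e => (1 - r e) * q e) S F := by
  let k : E → Bool → Bool → ℝ := fun e c b =>
    if e ∈ S ∧ c = false then (if b then q e else 1 - q e) else (if b then 0 else 1)
  let g : Bool × Bool → Option Bool := fun x =>
    if x.1 = true then some true else if x.2 = true then some false else none
  have h1 : TH r S (fun G => TH q (S \ G) (fun N => F G N)) =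
      EX (bw r S) (fun ω => EX (fun e => k e (ω e)) (fun ω' => F (tset ω) (tset ω'))) := by
    unfold TH
    refine EX_congr (fun _ _ => rfl) fun ω => EX_congr (fun e b => ?_) fun _ => rfl
    simp only [bw, k, mem_sdiff, mem_tset, Bool.not_eq_true]
  have h2 : ∀ ω ω' : E → Bool, (∀ e, (bw r S e (ω e)) * k e (ω e) (ω' e) ≠ 0) →
      F (tset ω) (tset ω') = F (lset (some true) (fun e => g (ω e, ω' e)))
        (lset (some false) (fun e => g (ω e, ω' e))) := by
    intro ω ω' h
    congr 1
    · ext e
      simp only [mem_tset, mem_lset, g]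
      by_cases h1 : ω e = true
      · simp [h1]
      · by_cases h2 : ω' e = true <;> simp [h1, h2]
    · ext e
      simp only [mem_tset, mem_lset, g]
      have he := h e
      by_cases h1 : ω e = true
      · by_cases h2 : ω' e = true
        · exfalso
          apply he
          simp [k, h1, h2]
        · simp [h1, h2]
      · by_cases h2 : ω' e = true <;> simp [h1, h2]
  rw [h1, EX_bind (bw r S) k (fun ω ω' => F (tset ω) (tset ω')),
    EX_congr_supp (G := fun τ => (fun κ : E → Option Bool => F (lset (some true) κ)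
      (lset (some false) κ)) (g ∘ τ)) (fun τ hτ => h2 _ _ hτ)]
  refine (EX_push g _ (fun κ : E → Option Bool => F (lset (some true) κ)
      (lset (some false) κ))).trans ?_
  unfold T2
  refine EX_congr (fun e c => ?_) fun _ => rfl
  rw [sum_filter, Fintype.sum_prod_type, Fintype.sum_bool, Fintype.sum_bool, Fintype.sum_bool]
  by_cases he : e ∈ S
  · rcases c with _ | _ | _ <;> simp [bw, bw2, k, g, he] <;> ring
  · rcases c with _ | _ | _ <;> simp [bw, bw2, k, g, he]

theorem T2_swap (a b : E → ℝ) (S : Finset E) (F : Finset E → Finset E → ℝ) :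
    T2 a b S F = T2 b a S (fun N G => F G N) := by
  let g : Option Bool → Option Bool := fun l => l.map (! ·)
  have h1 : T2 b a S (fun N G => F G N) = EX (bw2 b a S) (fun ω =>
      (fun κ : E → Option Bool => F (lset (some true) κ) (lset (some false) κ)) (g ∘ ω)) := by
    unfold T2
    refine EX_congr (fun _ _ => rfl) fun ω => ?_
    have e1 : lset (some false) ω = lset (some true) (g ∘ ω) := by
      ext e
      simp only [mem_lset, g, Function.comp]
      rcases ω e with _ | _ | _ <;> simp
    have e2 : lset (some true) ω = lset (some false) (g ∘ ω) := by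
      ext e
      simp only [mem_lset, g, Function.comp]
      rcases ω e with _ | _ | _ <;> simp
    show F (lset (some false) ω) (lset (some true) ω) = F (lset (some true) (g ∘ ω))
      (lset (some false) (g ∘ ω))
    rw [← e1, ← e2]
  rw [h1]
  refine Eq.trans ?_ (EX_push g _ (fun κ : E → Option Bool => F (lset (some true) κ)
      (lset (some false) κ))).symm
  unfold T2
  refine EX_congr (fun e c => ?_) fun _ => rfl
  rw [sum_filter, sum_ob]
  by_cases he : e ∈ S
  · rcases c with _ | _ | _ <;> simp [bw2, g, he] <;> ring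
  · rcases c with _ | _ | _ <;> simp [bw2, g, he]

theorem T2_union (a b : E → ℝ) (S : Finset E) (f : Finset E → ℝ) :
    T2 a b S (fun G N => f (G ∪ N)) = TH (fun e => a e + b e) S f := by
  let g : Option Bool → Bool := fun l => l.isSome
  have h1 : T2 a b S (fun G N => f (G ∪ N)) = EX (bw2 a b S) (fun ω =>
      (fun κ : E → Bool => f (tset κ)) (g ∘ ω)) := by
    unfold T2
    refine EX_congr (fun _ _ => rfl) fun ω => ?_
    have e1 : lset (some true) ω ∪ lset (some false) ω = tset (g ∘ ω) := by
      ext e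
      simp only [mem_union, mem_tset, mem_lset, g, Function.comp]
      rcases ω e with _ | _ | _ <;> simp
    show f (lset (some true) ω ∪ lset (some false) ω) = f (tset (g ∘ ω))
    rw [e1]
  rw [h1]
  refine (EX_push g _ (fun κ : E → Bool => f (tset κ))).trans ?_
  unfold TH
  refine EX_congr (fun e c => ?_) fun _ => rfl
  rw [sum_filter, sum_ob]
  by_cases he : e ∈ S
  · rcases c with _ | _ <;> simp [bw2, bw, g, he] <;> ring
  · rcases c with _ | _ <;> simp [bw2, bw, g, he]

theorem T2_fst (a b : E → ℝ) (S : Finset E) (f : Finset E → ℝ) :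
    T2 a b S (fun G _ => f G) = TH a S f := by
  let g : Option Bool → Bool := fun l => decide (l = some true)
  have h1 : T2 a b S (fun G _ => f G) = EX (bw2 a b S) (fun ω =>
      (fun κ : E → Bool => f (tset κ)) (g ∘ ω)) := by
    unfold T2
    refine EX_congr (fun _ _ => rfl) fun ω => ?_
    have e1 : lset (some true) ω = tset (g ∘ ω) := by
      ext e
      simp only [mem_tset, mem_lset, g, Function.comp, decide_eq_true_eq]
    rw [e1]
  rw [h1]
  refine (EX_push g _ (fun κ : E → Bool => f (tset κ))).trans ?_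
  unfold TH
  refine EX_congr (fun e c => ?_) fun _ => rfl
  rw [sum_filter, sum_ob]
  by_cases he : e ∈ S
  · rcases c with _ | _ <;> simp [bw2, bw, g, he]
  · rcases c with _ | _ <;> simp [bw2, bw, g, he]

theorem T2_snd (a b : E → ℝ) (S : Finset E) (f : Finset E → ℝ) :
    T2 a b S (fun _ N => f N) = TH b S f := by
  rw [T2_swap, T2_fst]

theorem T2_congr_rates {a b a' b' : E → ℝ} {S : Finset E} (ha : ∀ e ∈ S, a e = a' e)
    (hb : ∀ e ∈ S, b e = b' e) (F : Finset E → Finset E → ℝ) :
    T2 a b S F = T2 a' b' S F := by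
  unfold T2
  refine EX_congr (fun e c => ?_) fun _ => rfl
  by_cases he : e ∈ S
  · simp [bw2, he, ha e he, hb e he]
  · simp [bw2, he]

/-- **exchange of two exclusive thinnings**: if `(1 - r) q = r'` and `(1 - r') q' = r` -/
theorem TH_TH_swap (r q r' q' : E → ℝ) (S : Finset E)
    (h1 : ∀ e ∈ S, (1 - r e) * q e = r' e) (h2 : ∀ e ∈ S, (1 - r' e) * q' e = r e)
    (F : Finset E → Finset E → ℝ) :
    TH r S (fun G => TH q (S \ G) (fun N => F G N)) =
      TH r' S (fun N => TH q' (S \ N) (fun G => F G N)) := by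
  rw [TH_TH, TH_TH, T2_swap]
  exact T2_congr_rates h1 (fun e he => (h2 e he).symm) _

/-- the union of two exclusive thinnings -/
theorem TH_TH_union (r q t : E → ℝ) (S : Finset E)
    (h : ∀ e ∈ S, r e + (1 - r e) * q e = t e) (f : Finset E → ℝ) :
    TH r S (fun G => TH q (S \ G) (fun N => f (G ∪ N))) = TH t S f := by
  rw [TH_TH, T2_union]
  exact TH_congr h fun _ _ => rfl

/-- the second of two exclusive thinnings -/
theorem TH_TH_snd (r q t : E → ℝ) (S : Finset E)
    (h : ∀ e ∈ S, (1 - r e) * q e = t e) (f : Finset E → ℝ) :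
    TH r S (fun G => TH q (S \ G) f) = TH t S f := by
  rw [TH_TH, T2_snd]
  exact TH_congr h fun _ _ => rfl

end Vale.Agent.P331.H250
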