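import Mathlib

/-!
# Joint convexity of `b ^ 4 / c`

Division free form: `b i ^ 4 ≤ q i * c i` implies
`(∑ w b) ^ 4 ≤ (∑ w) ^ 2 * ((∑ w q) * (∑ w c))`; and the forms with a quotient.
-/

set_option autoImplicit false

namespace Vale.Agent.P331.H250

open Finset

variable {ι : Type*}

/-- division free joint convexity of `b ^ 4 / c` -/
theorem sum_pow_four_le (s : Finset ι) {w b q c : ι → ℝ} (hw : ∀ i ∈ s, 0 ≤ w i)
    (hq : ∀ i ∈ s, 0 ≤ q i) (hc : ∀ i ∈ s, 0 ≤ c i)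
    (h : ∀ i ∈ s, b i ^ 4 ≤ q i * c i) :
    (∑ i ∈ s, w i * b i) ^ 4 ≤
      (∑ i ∈ s, w i) ^ 2 * ((∑ i ∈ s, w i * q i) * ∑ i ∈ s, w i * c i) := by
  have h1 : (∑ i ∈ s, w i * b i) ^ 2 ≤ (∑ i ∈ s, w i) * ∑ i ∈ s, w i * b i ^ 2 :=
    Finset.sum_sq_le_sum_mul_sum_of_sq_le_mul s hw
      (fun i hi => mul_nonneg (hw i hi) (sq_nonneg _)) (fun i _ => le_of_eq (by ring))
  have h2 : (∑ i ∈ s, w i * b i ^ 2) ^ 2 ≤ (∑ i ∈ s, w i * q i) * ∑ i ∈ s, w i * c i := by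
    refine Finset.sum_sq_le_sum_mul_sum_of_sq_le_mul s
      (fun i hi => mul_nonneg (hw i hi) (hq i hi))
      (fun i hi => mul_nonneg (hw i hi) (hc i hi)) (fun i hi => ?_)
    calc (w i * b i ^ 2) ^ 2 = w i ^ 2 * b i ^ 4 := by ring
      _ ≤ w i ^ 2 * (q i * c i) := mul_le_mul_of_nonneg_left (h i hi) (sq_nonneg _)
      _ = w i * q i * (w i * c i) := by ring
  calc (∑ i ∈ s, w i * b i) ^ 4 = ((∑ i ∈ s, w i * b i) ^ 2) ^ 2 := by ring
    _ ≤ ((∑ i ∈ s, w i) * ∑ i ∈ s, w i * b i ^ 2) ^ 2 :=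
        pow_le_pow_left₀ (sq_nonneg _) h1 2
    _ = (∑ i ∈ s, w i) ^ 2 * (∑ i ∈ s, w i * b i ^ 2) ^ 2 := by ring
    _ ≤ (∑ i ∈ s, w i) ^ 2 * ((∑ i ∈ s, w i * q i) * ∑ i ∈ s, w i * c i) := by
        exact mul_le_mul_of_nonneg_left h2 (sq_nonneg _)

/-- joint convexity of `b ^ 4 / c`, general weights -/
theorem sum_pow_four_div_le (s : Finset ι) {w b c : ι → ℝ} (hw : ∀ i ∈ s, 0 ≤ w i)
    (hc : ∀ i ∈ s, 0 ≤ c i) (h0 : ∀ i ∈ s, c i = 0 → b i = 0) :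
    (∑ i ∈ s, w i * b i) ^ 4 / ∑ i ∈ s, w i * c i ≤
      (∑ i ∈ s, w i) ^ 2 * ∑ i ∈ s, w i * (b i ^ 4 / c i) := by
  have hq : ∀ i ∈ s, 0 ≤ b i ^ 4 / c i := fun i hi =>
    div_nonneg (by positivity) (hc i hi)
  have h := sum_pow_four_le s (b := b) (q := fun i => b i ^ 4 / c i) hw hq hc (fun i hi => by
    rcases eq_or_ne (c i) 0 with hi0 | hi0
    · rw [h0 i hi hi0]; simp [hi0]
    · rw [div_mul_cancel₀ _ hi0])
  refine div_le_of_le_mul₀ (sum_nonneg fun i hi => mul_nonneg (hw i hi) (hc i hi))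
    (mul_nonneg (sq_nonneg _) (sum_nonneg fun i hi => mul_nonneg (hw i hi) (hq i hi))) ?_
  rw [mul_assoc]
  exact h

/-- joint convexity of `b ^ 4 / c`, probability weights -/
theorem sum_pow_four_div_le_one (s : Finset ι) {w b c : ι → ℝ} (hw : ∀ i ∈ s, 0 ≤ w i)
    (hw1 : ∑ i ∈ s, w i = 1)
    (hc : ∀ i ∈ s, 0 ≤ c i) (h0 : ∀ i ∈ s, c i = 0 → b i = 0) :
    (∑ i ∈ s, w i * b i) ^ 4 / ∑ i ∈ s, w i * c i ≤ ∑ i ∈ s, w i * (b i ^ 4 / c i) := by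
  have h := sum_pow_four_div_le s hw hc h0
  rwa [hw1, one_pow, one_mul] at h

/-- two points -/
theorem pow_four_div_two {s t b₁ b₂ c₁ c₂ : ℝ} (hs : 0 ≤ s) (ht : 0 ≤ t) (hst : s + t = 1)
    (h₁ : 0 ≤ c₁) (h₂ : 0 ≤ c₂) (h₁' : c₁ = 0 → b₁ = 0) (h₂' : c₂ = 0 → b₂ = 0) :
    (s * b₁ + t * b₂) ^ 4 / (s * c₁ + t * c₂) ≤ s * (b₁ ^ 4 / c₁) + t * (b₂ ^ 4 / c₂) := by
  have h := sum_pow_four_div_le_one (Finset.univ : Finset (Fin 2)) (w := ![s, t])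
    (b := ![b₁, b₂]) (c := ![c₁, c₂])
    (by intro i _; fin_cases i <;> simpa) (by simpa [Fin.sum_univ_two] using hst)
    (by intro i _; fin_cases i <;> simpa) (by intro i _; fin_cases i <;> simpa)
  simpa [Fin.sum_univ_two] using h

/-- **The three label step.**  `s + θ + δ = 1`: the row of a label that stays with weight `s`,
goes to `X` with weight `θ - ε` (numerator) or `θ` (denominator), and to `O` with weight
`δ + ε` (numerator) or `δ` (denominator), is at most `s` times the value of the label that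
stays plus `θ + δ` times the value of the normalised two label row. -/
theorem pow_four_div_three {s θ δ ε bR bX bO xR xX xO : ℝ} (hs : 0 ≤ s) (hθ : 0 ≤ θ)
    (hδ : 0 ≤ δ) (hsum : s + θ + δ = 1) (hpos : 0 < θ + δ)
    (hxR : 0 ≤ xR) (hxX : 0 ≤ xX) (hxO : 0 ≤ xO) (hR : xR = 0 → bR = 0)
    (h2 : θ * xX + δ * xO = 0 → (θ - ε) * bX + (δ + ε) * bO = 0) :
    (s * bR + (θ - ε) * bX + (δ + ε) * bO) ^ 4 / (s * xR + θ * xX + δ * xO) ≤
      s * (bR ^ 4 / xR) + (θ + δ) *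
        ((((θ - ε) * bX + (δ + ε) * bO) / (θ + δ)) ^ 4 / ((θ * xX + δ * xO) / (θ + δ))) := by
  have h := pow_four_div_two (s := s) (t := θ + δ) (b₁ := bR)
    (b₂ := ((θ - ε) * bX + (δ + ε) * bO) / (θ + δ)) (c₁ := xR)
    (c₂ := (θ * xX + δ * xO) / (θ + δ)) hs hpos.le (by linarith) hxR
    (div_nonneg (by positivity) hpos.le) hR (by
      intro h0
      rw [div_eq_zero_iff] at h0
      rcases h0 with h0 | h0
      · rw [h2 h0, zero_div]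
      · exact absurd h0 hpos.ne')
  have e1 : s * bR + (θ + δ) * (((θ - ε) * bX + (δ + ε) * bO) / (θ + δ)) =
      s * bR + (θ - ε) * bX + (δ + ε) * bO := by
    rw [mul_div_cancel₀ _ hpos.ne']; ring
  have e2 : s * xR + (θ + δ) * ((θ * xX + δ * xO) / (θ + δ)) =
      s * xR + θ * xX + δ * xO := by
    rw [mul_div_cancel₀ _ hpos.ne']; ring
  rwa [e1, e2] at h

/-- the normalised two label row, with the factor `θ + δ` pulled in:
`(θ + δ) * ((u / (θ + δ)) ^ 4 / (m / (θ + δ))) = u ^ 4 / ((θ + δ) ^ 2 * m)` -/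
theorem norm_row {r u m : ℝ} (hr : 0 < r) :
    r * ((u / r) ^ 4 / (m / r)) = u ^ 4 / (r ^ 2 * m) := by
  rcases eq_or_ne m 0 with rfl | hm
  · simp
  · field_simp

end Vale.Agent.P331.H250
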