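import Vale.Agent.P331.H250.Drop

/-!
# Thinnings in the sense of `H316.Defs`: composition identities
-/

set_option autoImplicit false
set_option linter.unusedSectionVars false
set_option linter.unusedVariables false

namespace Vale.Agent.P331.H250

open Finset Vale.Agent.P331.H489 Vale.Agent.P331.H316

/-- point masses -/
theorem EX_det {E L : Type*} [Fintype E] [DecidableEq E] [Fintype L] [DecidableEq L]
    (g : E → L) (F : (E → L) → ℝ) :
    EX (fun e l => if l = g e then (1 : ℝ) else 0) F = F g := by
  unfold EX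
  rw [sum_eq_single g]
  · simp
  · intro ω _ hω
    obtain ⟨e, he⟩ := Function.ne_iff.1 hω
    rw [prod_eq_zero (mem_univ e) (if_neg he), zero_mul]
  · intro h
    exact absurd (mem_univ _) h

open scoped Classical

section

variable {E : Type} [Fintype E]

theorem thin_eq_TH (τ : ℝ) (S : Finset E) (F : Finset E → ℝ) :
    thin τ S F = TH (fun _ => τ) S F := by
  let k : E → Bool → Bool → ℝ := fun e c b => if b = (decide (e ∈ S) && c) then 1 else 0
  have h1 : thin τ S F = EX (fun _ : E => tw τ) (KR k fun b => F (tset b)) := by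
    unfold thin KR
    refine EX_congr (fun _ _ => rfl) fun c => ?_
    have : EX (fun e => k e (c e)) (fun b => F (tset b)) =
        F (tset fun e => decide (e ∈ S) && c e) :=
      EX_det (fun e => decide (e ∈ S) && c e) fun b => F (tset b)
    rw [this]
    congr 1
    ext e
    simp [tset]
  rw [h1, EX_KR]
  unfold TH
  refine EX_congr (fun e b => ?_) fun _ => rfl
  rw [Fintype.sum_bool]
  by_cases he : e ∈ S
  · cases b <;> simp [k, tw, bw, he]
  · cases b <;> simp [k, tw, bw, he]

/-- the union of two exclusive thinnings -/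
theorem thin_union (r q t : ℝ) (h : r + (1 - r) * q = t) (S : Finset E) (f : Finset E → ℝ) :
    thin r S (fun G => thin q (S \ G) fun N => f (G ∪ N)) = thin t S f := by
  simp only [thin_eq_TH]
  exact TH_TH_union (fun _ => r) (fun _ => q) (fun _ => t) S (fun _ _ => h) f

/-- the second of two exclusive thinnings -/
theorem thin_snd (r q t : ℝ) (h : (1 - r) * q = t) (S : Finset E) (f : Finset E → ℝ) :
    thin r S (fun G => thin q (S \ G) f) = thin t S f := by
  simp only [thin_eq_TH]
  exact TH_TH_snd (fun _ => r) (fun _ => q) (fun _ => t) S (fun _ _ => h) f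

/-- exchange of two exclusive thinnings -/
theorem thin_swap (r q r' q' : ℝ) (h1 : (1 - r) * q = r') (h2 : (1 - r') * q' = r)
    (S : Finset E) (F : Finset E → Finset E → ℝ) :
    thin r S (fun G => thin q (S \ G) fun N => F G N) =
      thin r' S (fun N => thin q' (S \ N) fun G => F G N) := by
  simp only [thin_eq_TH]
  exact TH_TH_swap (fun _ => r) (fun _ => q) (fun _ => r') (fun _ => q') S (fun _ _ => h1)
    (fun _ _ => h2) F

/-- a thinning of the sample is an exclusive label -/
theorem PR_thin (p x s τ : ℝ) (F : Finset E → Finset E → Finset E → ℝ) :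
    PR p x s (fun V R I => thin τ R fun X => F V X I) = PR p (x * τ) s F := by
  let g : L4 × Bool → L4 := fun y => if y.1 = .s ∧ y.2 = false then .o else y.1
  have h1 : PR p x s (fun V R I => thin τ R fun X => F V X I) =
      EX (fun _ : E => w4 p x s) (fun κ => EX (fun _ : E => tw τ) (fun c =>
        F (cls (fun e => g (κ e, c e)) .v) (cls (fun e => g (κ e, c e)) .s)
          (cls (fun e => g (κ e, c e)) .i))) := by
    unfold PR thin
    refine EX_congr (fun _ _ => rfl) fun κ => EX_congr (fun _ _ => rfl) fun c => ?_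
    have e1 : cls κ .v = cls (fun e => g (κ e, c e)) .v := by
      ext e
      simp only [cls, mem_filter, mem_univ, true_and, g]
      by_cases h : κ e = .s <;> cases c e <;> simp [h]
    have e2 : (cls κ .s).filter (fun e => c e = true) = cls (fun e => g (κ e, c e)) .s := by
      ext e
      simp only [cls, mem_filter, mem_univ, true_and, g]
      by_cases h : κ e = .s <;> cases c e <;> simp [h]
    have e3 : cls κ .i = cls (fun e => g (κ e, c e)) .i := by
      ext e
      simp only [cls, mem_filter, mem_univ, true_and, g]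
      by_cases h : κ e = .s <;> cases c e <;> simp [h]
    rw [← e1, ← e2, ← e3]
  rw [h1]
  have h2 := EX_bind_map (E := E) (fun _ : E => w4 p x s) (fun _ _ => tw τ) g
    (fun κ => F (cls κ .v) (cls κ .s) (cls κ .i))
  refine Eq.trans h2 ?_
  unfold PR
  refine EX_congr (fun e c => ?_) fun _ => rfl
  rw [sum_filter, Fintype.sum_prod_type, sum_L4]
  simp only [Fintype.sum_bool]
  cases c <;> simp [g, w4, tw] <;> ring

theorem w4_nonneg {p x s : ℝ} (hp : 0 ≤ p) (hx : 0 ≤ x) (hs : 0 ≤ s) (h : p + x + s ≤ 1)
    (l : L4) : 0 ≤ w4 p x s l := by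
  cases l <;> simp only [w4] <;> linarith

theorem sum_w4 (p x s : ℝ) : ∑ l, w4 p x s l = 1 := by
  rw [sum_L4]
  simp only [w4]
  ring

theorem PR_mono {p x s : ℝ} (hp : 0 ≤ p) (hx : 0 ≤ x) (hs : 0 ≤ s) (h : p + x + s ≤ 1)
    {F G : Finset E → Finset E → Finset E → ℝ} (hFG : ∀ V R I, F V R I ≤ G V R I) :
    PR p x s F ≤ PR p x s G :=
  EX_mono (fun _ l => w4_nonneg hp hx hs h l) fun _ => hFG _ _ _

theorem PR_const (p x s c : ℝ) : PR (E := E) p x s (fun _ _ _ => c) = c :=
  EX_one _ (fun _ => sum_w4 p x s) c

theorem PR_sum {ι : Type*} (σ : Finset ι) (p x s : ℝ)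
    (F : ι → Finset E → Finset E → Finset E → ℝ) :
    PR p x s (fun V R I => ∑ i ∈ σ, F i V R I) = ∑ i ∈ σ, PR p x s (F i) := by
  unfold PR
  exact EX_sum σ _ _

end

end Vale.Agent.P331.H250
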